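import Vale.Agent.Lib.P335.Defs

/-!
# Raw edge-set lemmas for two disjoint vertex pairs (problem P335, graph case)

`b = {u, w}` and `b' = {x, y}` are disjoint vertex pairs. The four pairs `ux, uy, wx, wy`
are the *slots* between them. Two graphs are `SAgree P` if they have the same edges outside
the pair set `P`.
-/

namespace Vale.Agent.Lib.P335.H17

open Finset
open Vale.Agent.Lib.P335
open Classical

variable {n : ℕ} {d : Fin n → ℕ}

/-- `E` and `E'` have the same edges outside the pair set `P`. -/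
def SAgree (P : Finset (Sym2 (Fin n))) (E E' : Finset (Sym2 (Fin n))) : Prop :=
  ∀ e, e ∉ P → (e ∈ E ↔ e ∈ E')

theorem SAgree.refl (P : Finset (Sym2 (Fin n))) (E : Finset (Sym2 (Fin n))) : SAgree P E E :=
  fun _ _ => Iff.rfl

theorem SAgree.symm {P : Finset (Sym2 (Fin n))} {E E' : Finset (Sym2 (Fin n))}
    (h : SAgree P E E') : SAgree P E' E := fun e he => (h e he).symm

theorem SAgree.trans {P : Finset (Sym2 (Fin n))} {E E' E'' : Finset (Sym2 (Fin n))}
    (h : SAgree P E E') (h' : SAgree P E' E'') : SAgree P E E'' :=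
  fun e he => (h e he).trans (h' e he)

theorem SAgree.mono {P Q : Finset (Sym2 (Fin n))} {E E' : Finset (Sym2 (Fin n))}
    (hPQ : P ⊆ Q) (h : SAgree P E E') : SAgree Q E E' :=
  fun e he => h e (fun hP => he (hPQ hP))

/-- The pairs that meet the vertex set `W`. -/
def pairsAt (W : Finset (Fin n)) : Finset (Sym2 (Fin n)) :=
  univ.filter (fun e => ∃ v ∈ W, v ∈ e)

theorem mk_mem_pairsAt {W : Finset (Fin n)} {a b : Fin n} :
    s(a, b) ∈ pairsAt W ↔ a ∈ W ∨ b ∈ W := by
  simp only [pairsAt, mem_filter, mem_univ, true_and, Sym2.mem_iff]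
  constructor
  · rintro ⟨v, hv, rfl | rfl⟩
    · exact Or.inl hv
    · exact Or.inr hv
  · rintro (h | h)
    · exact ⟨a, h, Or.inl rfl⟩
    · exact ⟨b, h, Or.inr rfl⟩

/-- Agreement outside the pairs meeting `W` means: same graph after deleting `W`. -/
theorem sAgree_pairsAt_iff {W : Finset (Fin n)} {E E' : Finset (Sym2 (Fin n))} :
    SAgree (pairsAt W) E E' ↔
      ∀ a b, a ∉ W → b ∉ W → (s(a, b) ∈ E ↔ s(a, b) ∈ E') := by
  constructor
  · intro h a b ha hb
    apply h
    rw [mk_mem_pairsAt]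
    tauto
  · intro h e he
    induction e using Sym2.ind with
    | _ a b =>
      rw [mk_mem_pairsAt] at he
      push Not at he
      exact h a b he.1 he.2

/-- The number of edges of `E` at `v` that belong to the pair set `P`. -/
noncomputable def pdeg (P E : Finset (Sym2 (Fin n))) (v : Fin n) : ℕ :=
  ((nbrs E v).filter (fun z => s(v, z) ∈ P)).card

/-- Two realizations of the same degree sequence that agree outside `P` have the same number
of `P`-edges at every vertex. -/
theorem pdeg_eq_of_sAgree {P E E' : Finset (Sym2 (Fin n))}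
    (hE : IsRealization d E) (hE' : IsRealization d E') (h : SAgree P E E') (v : Fin n) :
    pdeg P E v = pdeg P E' v := by
  have h1 : (nbrs E v).filter (fun z => s(v, z) ∉ P) = (nbrs E' v).filter (fun z => s(v, z) ∉ P) := by
    ext z
    simp only [mem_filter, nbrs, mem_univ, true_and]
    constructor
    · rintro ⟨hz, hP⟩
      exact ⟨(h _ hP).mp hz, hP⟩
    · rintro ⟨hz, hP⟩
      exact ⟨(h _ hP).mpr hz, hP⟩
  have h2 := card_filter_add_card_filter_not (s := nbrs E v) (fun z => s(v, z) ∈ P)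
  have h3 := card_filter_add_card_filter_not (s := nbrs E' v) (fun z => s(v, z) ∈ P)
  rw [hE.2 v] at h2
  rw [hE'.2 v] at h3
  rw [h1] at h2
  unfold pdeg
  omega

/-- The indicator of an edge. -/
noncomputable def ind (E : Finset (Sym2 (Fin n))) (a b : Fin n) : ℕ := if s(a, b) ∈ E then 1 else 0

theorem ind_le_one (E : Finset (Sym2 (Fin n))) (a b : Fin n) : ind E a b ≤ 1 := by
  unfold ind; split_ifs <;> simp

theorem ind_eq_one_iff {E : Finset (Sym2 (Fin n))} {a b : Fin n} : ind E a b = 1 ↔ s(a, b) ∈ E := by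
  unfold ind; split_ifs with h <;> simp [h]

theorem ind_eq_zero_iff {E : Finset (Sym2 (Fin n))} {a b : Fin n} : ind E a b = 0 ↔ s(a, b) ∉ E := by
  unfold ind; split_ifs with h <;> simp [h]

theorem ind_comm (E : Finset (Sym2 (Fin n))) (a b : Fin n) : ind E a b = ind E b a := by
  unfold ind; rw [Sym2.eq_swap]

theorem ind_eq_ite {E : Finset (Sym2 (Fin n))} {a b : Fin n} {P : Prop} (h : s(a, b) ∈ E ↔ P) :
    ind E a b = if P then 1 else 0 := by
  unfold ind
  by_cases hp : P
  · rw [if_pos hp, if_pos (h.mpr hp)]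
  · rw [if_neg hp, if_neg (fun hh => hp (h.mp hh))]

theorem ind_congr {E E' : Finset (Sym2 (Fin n))} {a b a' b' : Fin n}
    (h : s(a, b) ∈ E ↔ s(a', b') ∈ E') : ind E a b = ind E' a' b' := by
  rw [ind_eq_ite h, ind_eq_ite (Iff.rfl : s(a', b') ∈ E' ↔ s(a', b') ∈ E')]

/-- The number of edges of `E` from `v` to the two distinct vertices `p`, `q` (both different
from `v`) is the `pairsAt {p, q}`-degree of `v`. -/
theorem pdeg_pairsAt_pair (E : Finset (Sym2 (Fin n))) {v p q : Fin n} (hpq : p ≠ q)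
    (hvp : v ≠ p) (hvq : v ≠ q) :
    pdeg (pairsAt {p, q}) E v = ind E v p + ind E v q := by
  unfold pdeg
  have : (nbrs E v).filter (fun z => s(v, z) ∈ pairsAt {p, q})
      = (if s(v, p) ∈ E then {p} else ∅) ∪ (if s(v, q) ∈ E then {q} else ∅) := by
    ext z
    simp only [mem_filter, nbrs, mem_univ, true_and, mk_mem_pairsAt, mem_insert, mem_singleton,
      mem_union]
    constructor
    · rintro ⟨hz, (h | h) | (h | h)⟩
      · exact absurd h hvp
      · exact absurd h hvq
      · subst h; left; simp [hz]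
      · subst h; right; simp [hz]
    · rintro (h | h)
      · split_ifs at h with h'
        · simp only [mem_singleton] at h; subst h; exact ⟨h', Or.inr (Or.inl rfl)⟩
        · simp at h
      · split_ifs at h with h'
        · simp only [mem_singleton] at h; subst h; exact ⟨h', Or.inr (Or.inr rfl)⟩
        · simp at h
  rw [this, card_union_of_disjoint]
  · unfold ind
    split_ifs <;> simp
  · rw [disjoint_left]
    intro z hz hz'
    split_ifs at hz with h1
    · split_ifs at hz' with h2
      · simp only [mem_singleton] at hz hz'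
        exact hpq (hz.symm.trans hz')
      · simp at hz'
    · simp at hz

/-- **Column sums are preserved**: if two realizations agree outside the pairs meeting
`{u, w}`, every other vertex `x` has the same number of neighbours among `u, w` in both. -/
theorem col_sum_eq {E E' : Finset (Sym2 (Fin n))} {u w x : Fin n}
    (hE : IsRealization d E) (hE' : IsRealization d E') (h : SAgree (pairsAt {u, w}) E E')
    (huw : u ≠ w) (hxu : x ≠ u) (hxw : x ≠ w) :
    ind E x u + ind E x w = ind E' x u + ind E' x w := by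
  rw [← pdeg_pairsAt_pair E huw hxu hxw, ← pdeg_pairsAt_pair E' huw hxu hxw]
  exact pdeg_eq_of_sAgree hE hE' h x

/-- **Frozen slots** (L3): if the column of `x` has even sum in `E`, it is the same in every
realization agreeing with `E` outside the pairs meeting `{u, w}`. -/
theorem frozen_col {E E' : Finset (Sym2 (Fin n))} {u w x : Fin n}
    (hE : IsRealization d E) (hE' : IsRealization d E') (h : SAgree (pairsAt {u, w}) E E')
    (huw : u ≠ w) (hxu : x ≠ u) (hxw : x ≠ w) (heven : s(x, u) ∈ E ↔ s(x, w) ∈ E) :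
    (s(x, u) ∈ E' ↔ s(x, u) ∈ E) ∧ (s(x, w) ∈ E' ↔ s(x, w) ∈ E) := by
  have hc := col_sum_eq hE hE' h huw hxu hxw
  have a1 := ind_le_one E x u
  have a2 := ind_le_one E x w
  have a3 := ind_le_one E' x u
  have a4 := ind_le_one E' x w
  by_cases h1 : s(x, u) ∈ E
  · have h2 : s(x, w) ∈ E := heven.mp h1
    have e1 := ind_eq_one_iff.mpr h1
    have e2 := ind_eq_one_iff.mpr h2
    have e3 : ind E' x u = 1 := by omega
    have e4 : ind E' x w = 1 := by omega
    exact ⟨⟨fun _ => h1, fun _ => ind_eq_one_iff.mp e3⟩, ⟨fun _ => h2, fun _ => ind_eq_one_iff.mp e4⟩⟩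
  · have h2 : s(x, w) ∉ E := fun hh => h1 (heven.mpr hh)
    have e1 := ind_eq_zero_iff.mpr h1
    have e2 := ind_eq_zero_iff.mpr h2
    have e3 : ind E' x u = 0 := by omega
    have e4 : ind E' x w = 0 := by omega
    exact ⟨⟨fun hh => absurd hh (ind_eq_zero_iff.mp e3), fun hh => absurd hh h1⟩,
      ⟨fun hh => absurd hh (ind_eq_zero_iff.mp e4), fun hh => absurd hh h2⟩⟩

/-! ### The four slots between two disjoint pairs -/

/-- The four cross pairs between `{u, w}` and `{x, y}`. -/
def slots (u w x y : Fin n) : Finset (Sym2 (Fin n)) := {s(u, x), s(u, y), s(w, x), s(w, y)}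

theorem mem_slots {u w x y : Fin n} {e : Sym2 (Fin n)} :
    e ∈ slots u w x y ↔ e = s(u, x) ∨ e = s(u, y) ∨ e = s(w, x) ∨ e = s(w, y) := by
  simp [slots]

theorem slots_subset_pairsAt_left (u w x y : Fin n) : slots u w x y ⊆ pairsAt {u, w} := by
  intro e he
  rw [mem_slots] at he
  rcases he with rfl | rfl | rfl | rfl <;> rw [mk_mem_pairsAt] <;> simp

theorem slots_subset_pairsAt_right (u w x y : Fin n) : slots u w x y ⊆ pairsAt {x, y} := by
  intro e he
  rw [mem_slots] at he
  rcases he with rfl | rfl | rfl | rfl <;> rw [mk_mem_pairsAt] <;> simp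

/-- A pair meeting both `{u, w}` and `{x, y}` (disjoint) is a slot. -/
theorem mem_slots_of_mem_both {u w x y : Fin n} (hux : u ≠ x) (huy : u ≠ y) (hwx : w ≠ x)
    (hwy : w ≠ y) {e : Sym2 (Fin n)} (h1 : e ∈ pairsAt {u, w}) (h2 : e ∈ pairsAt {x, y}) :
    e ∈ slots u w x y := by
  induction e using Sym2.ind with
  | _ a b =>
    rw [mk_mem_pairsAt] at h1 h2
    simp only [mem_insert, mem_singleton] at h1 h2
    rw [mem_slots]
    rcases h1 with (rfl | rfl) | (rfl | rfl) <;> rcases h2 with (h | h) | (h | h) <;>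
      first
      | exact absurd h hux | exact absurd h huy | exact absurd h hwx | exact absurd h hwy
      | (subst h; simp [Sym2.eq_swap])

/-- Agreement outside both pair sets is agreement outside the slots. -/
theorem sAgree_slots_of_both {u w x y : Fin n} (hux : u ≠ x) (huy : u ≠ y) (hwx : w ≠ x)
    (hwy : w ≠ y) {E E' : Finset (Sym2 (Fin n))} (h1 : SAgree (pairsAt {u, w}) E E')
    (h2 : SAgree (pairsAt {x, y}) E E') : SAgree (slots u w x y) E E' := by
  intro e he
  by_cases h : e ∈ pairsAt {u, w}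
  · by_cases h' : e ∈ pairsAt {x, y}
    · exact absurd (mem_slots_of_mem_both hux huy hwx hwy h h') he
    · exact h2 e h'
  · exact h1 e h

/-- The number of slot edges. -/
noncomputable def slotCount (E : Finset (Sym2 (Fin n))) (u w x y : Fin n) : ℕ :=
  ind E u x + ind E u y + ind E w x + ind E w y

/-- The slot matrix is one of the two perfect matchings of the 4-cycle `u x w y`. -/
def Alt (E : Finset (Sym2 (Fin n))) (u w x y : Fin n) : Prop :=
  (s(u, x) ∈ E ∧ s(w, y) ∈ E ∧ s(u, y) ∉ E ∧ s(w, x) ∉ E) ∨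
  (s(u, y) ∈ E ∧ s(w, x) ∈ E ∧ s(u, x) ∉ E ∧ s(w, y) ∉ E)

/-- The slot count is the same along `{u,w}`-orbits. -/
theorem slotCount_eq_left {E E' : Finset (Sym2 (Fin n))} {u w x y : Fin n}
    (hE : IsRealization d E) (hE' : IsRealization d E') (h : SAgree (pairsAt {u, w}) E E')
    (huw : u ≠ w) (hux : u ≠ x) (huy : u ≠ y) (hwx : w ≠ x) (hwy : w ≠ y) :
    slotCount E u w x y = slotCount E' u w x y := by
  have h1 := col_sum_eq hE hE' h huw hux.symm hwx.symm
  have h2 := col_sum_eq hE hE' h huw huy.symm hwy.symm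
  unfold slotCount
  rw [ind_comm E u x, ind_comm E u y, ind_comm E w x, ind_comm E w y,
    ind_comm E' u x, ind_comm E' u y, ind_comm E' w x, ind_comm E' w y]
  omega

/-- The slot count is the same along `{x,y}`-orbits. -/
theorem slotCount_eq_right {E E' : Finset (Sym2 (Fin n))} {u w x y : Fin n}
    (hE : IsRealization d E) (hE' : IsRealization d E') (h : SAgree (pairsAt {x, y}) E E')
    (hxy : x ≠ y) (hux : u ≠ x) (huy : u ≠ y) (hwx : w ≠ x) (hwy : w ≠ y) :
    slotCount E u w x y = slotCount E' u w x y := by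
  have h1 := col_sum_eq hE hE' h hxy hux huy
  have h2 := col_sum_eq hE hE' h hxy hwx hwy
  unfold slotCount
  omega

/-- (L5) Even slot count, an odd column and an odd row force an alternating 4-cycle. -/
theorem alt_of_even {E : Finset (Sym2 (Fin n))} {u w x y : Fin n}
    (hs : Even (slotCount E u w x y))
    (hcol : ¬ ((s(u, x) ∈ E ↔ s(w, x) ∈ E) ∧ (s(u, y) ∈ E ↔ s(w, y) ∈ E)))
    (hrow : ¬ ((s(u, x) ∈ E ↔ s(u, y) ∈ E) ∧ (s(w, x) ∈ E ↔ s(w, y) ∈ E))) :
    Alt E u w x y := by
  unfold slotCount ind at hs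
  unfold Alt
  by_cases h1 : s(u, x) ∈ E <;> by_cases h2 : s(u, y) ∈ E <;> by_cases h3 : s(w, x) ∈ E <;>
    by_cases h4 : s(w, y) ∈ E <;> simp [h1, h2, h3, h4] at hs hcol hrow ⊢ <;>
    exact absurd hs (by decide)

/-- An alternating slot matrix has slot count `2`. -/
theorem slotCount_of_alt {E : Finset (Sym2 (Fin n))} {u w x y : Fin n} (h : Alt E u w x y) :
    slotCount E u w x y = 2 := by
  unfold slotCount ind
  rcases h with ⟨h1, h2, h3, h4⟩ | ⟨h1, h2, h3, h4⟩ <;> simp [h1, h2, h3, h4]

/-! ### The flip of the 4-cycle `u x w y` -/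

/-- Toggle the four slots when the 4-cycle `u x w y` is alternating; otherwise do nothing. -/
noncomputable def flipS (E : Finset (Sym2 (Fin n))) (u w x y : Fin n) : Finset (Sym2 (Fin n)) :=
  if Alt E u w x y then symmDiff E (slots u w x y) else E

theorem mem_flipS_of_not_mem_slots {E : Finset (Sym2 (Fin n))} {u w x y : Fin n}
    {e : Sym2 (Fin n)} (he : e ∉ slots u w x y) : e ∈ flipS E u w x y ↔ e ∈ E := by
  unfold flipS
  split_ifs
  · rw [mem_symmDiff]; tauto
  · rfl

theorem sAgree_flipS (E : Finset (Sym2 (Fin n))) (u w x y : Fin n) :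
    SAgree (slots u w x y) E (flipS E u w x y) :=
  fun _ he => (mem_flipS_of_not_mem_slots he).symm

theorem mem_flipS_of_mem_slots {E : Finset (Sym2 (Fin n))} {u w x y : Fin n}
    (h : Alt E u w x y) {e : Sym2 (Fin n)} (he : e ∈ slots u w x y) :
    e ∈ flipS E u w x y ↔ e ∉ E := by
  unfold flipS
  rw [if_pos h, mem_symmDiff]; tauto

theorem flipS_of_not_alt {E : Finset (Sym2 (Fin n))} {u w x y : Fin n} (h : ¬ Alt E u w x y) :
    flipS E u w x y = E := by
  unfold flipS; rw [if_neg h]

theorem alt_flipS {E : Finset (Sym2 (Fin n))} {u w x y : Fin n} (h : Alt E u w x y) :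
    Alt (flipS E u w x y) u w x y := by
  have a1 := mem_flipS_of_mem_slots h (e := s(u, x)) (by simp [slots])
  have a2 := mem_flipS_of_mem_slots h (e := s(u, y)) (by simp [slots])
  have a3 := mem_flipS_of_mem_slots h (e := s(w, x)) (by simp [slots])
  have a4 := mem_flipS_of_mem_slots h (e := s(w, y)) (by simp [slots])
  unfold Alt at h ⊢
  rw [a1, a2, a3, a4]
  tauto

theorem flipS_flipS (E : Finset (Sym2 (Fin n))) (u w x y : Fin n) :
    flipS (flipS E u w x y) u w x y = E := by
  by_cases h : Alt E u w x y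
  · have h' := alt_flipS h
    ext e
    by_cases he : e ∈ slots u w x y
    · rw [mem_flipS_of_mem_slots h' he, mem_flipS_of_mem_slots h he]; tauto
    · rw [mem_flipS_of_not_mem_slots he, mem_flipS_of_not_mem_slots he]
  · rw [flipS_of_not_alt h, flipS_of_not_alt h]

theorem flipS_ne_iff {E : Finset (Sym2 (Fin n))} {u w x y : Fin n} :
    flipS E u w x y ≠ E ↔ Alt E u w x y := by
  constructor
  · intro h
    by_contra h'
    exact h (flipS_of_not_alt h')
  · intro h heq
    have a1 := mem_flipS_of_mem_slots h (e := s(u, x)) (by simp [slots])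
    have a2 := mem_flipS_of_mem_slots h (e := s(u, y)) (by simp [slots])
    rw [heq] at a1 a2
    tauto

/-- In the alternating case the flip is a switch of the problem's chain. -/
theorem flipS_eq_switchSet {E : Finset (Sym2 (Fin n))} {u w x y : Fin n}
    (huw : u ≠ w) (hxy : x ≠ y) (hux : u ≠ x) (huy : u ≠ y) (hwx : w ≠ x) (hwy : w ≠ y)
    (h : Alt E u w x y) :
    flipS E u w x y = switchSet E u x y w ∨ flipS E u w x y = switchSet E u y x w := by
  have e1 : s(u, x) ≠ s(u, y) := by simp [Sym2.eq_iff, hxy, hux, huy]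
  have e2 : s(u, x) ≠ s(w, x) := by simp [Sym2.eq_iff, huw, hux, hwx]
  have e3 : s(u, x) ≠ s(w, y) := by simp [Sym2.eq_iff, huw, hxy, hux, huy, hwx, hwy]
  have e4 : s(u, y) ≠ s(w, x) := by simp [Sym2.eq_iff, huw, hxy, hux, huy, hwx, hwy, hxy.symm]
  have e5 : s(u, y) ≠ s(w, y) := by simp [Sym2.eq_iff, huw, huy, hwy]
  have e6 : s(w, x) ≠ s(w, y) := by simp [Sym2.eq_iff, hxy, hwx, hwy]
  rcases h with ⟨h1, h2, h3, h4⟩ | ⟨h1, h2, h3, h4⟩
  · left
    have hcond : s(u, x) ∈ E ∧ s(y, w) ∈ E ∧ s(u, y) ∉ E ∧ s(x, w) ∉ E :=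
      ⟨h1, by rw [Sym2.eq_swap]; exact h2, h3, by rw [Sym2.eq_swap]; exact h4⟩
    unfold switchSet
    rw [if_pos hcond]
    ext e
    by_cases he : e ∈ slots u w x y
    · rw [mem_flipS_of_mem_slots (Or.inl ⟨h1, h2, h3, h4⟩) he]
      rw [mem_slots] at he
      simp only [mem_union, mem_sdiff, mem_insert, mem_singleton]
      rw [Sym2.eq_swap (a := y) (b := w), Sym2.eq_swap (a := x) (b := w)]
      rcases he with rfl | rfl | rfl | rfl
      · simp [h1, e1, e2, e3]
      · simp [h3]
      · simp [h4]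
      · simp [h2, e3.symm, e5.symm, e6.symm]
    · rw [mem_flipS_of_not_mem_slots he]
      rw [mem_slots] at he
      push Not at he
      simp only [mem_union, mem_sdiff, mem_insert, mem_singleton]
      rw [Sym2.eq_swap (a := y) (b := w), Sym2.eq_swap (a := x) (b := w)]
      tauto
  · right
    have hcond : s(u, y) ∈ E ∧ s(x, w) ∈ E ∧ s(u, x) ∉ E ∧ s(y, w) ∉ E :=
      ⟨h1, by rw [Sym2.eq_swap]; exact h2, h3, by rw [Sym2.eq_swap]; exact h4⟩
    unfold switchSet
    rw [if_pos hcond]
    ext e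
    by_cases he : e ∈ slots u w x y
    · rw [mem_flipS_of_mem_slots (Or.inr ⟨h1, h2, h3, h4⟩) he]
      rw [mem_slots] at he
      simp only [mem_union, mem_sdiff, mem_insert, mem_singleton]
      rw [Sym2.eq_swap (a := y) (b := w), Sym2.eq_swap (a := x) (b := w)]
      rcases he with rfl | rfl | rfl | rfl
      · simp [h3]
      · simp [h1, e1.symm, e4, e5]
      · simp [h2, e2.symm, e4.symm, e6]
      · simp [h4]
    · rw [mem_flipS_of_not_mem_slots he]
      rw [mem_slots] at he
      push Not at he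
      simp only [mem_union, mem_sdiff, mem_insert, mem_singleton]
      rw [Sym2.eq_swap (a := y) (b := w), Sym2.eq_swap (a := x) (b := w)]
      tauto

/-- (L1) The flip of a realization is a realization. -/
theorem flipS_isRealization {E : Finset (Sym2 (Fin n))} {u w x y : Fin n}
    (hE : IsRealization d E)
    (huw : u ≠ w) (hxy : x ≠ y) (hux : u ≠ x) (huy : u ≠ y) (hwx : w ≠ x) (hwy : w ≠ y) :
    IsRealization d (flipS E u w x y) := by
  by_cases h : Alt E u w x y
  · rcases flipS_eq_switchSet huw hxy hux huy hwx hwy h with h' | h'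
    · rw [h']
      exact switchSet_isRealization hE hux huy huw hxy hwx.symm hwy.symm
    · rw [h']
      exact switchSet_isRealization hE huy hux huw hxy.symm hwy.symm hwx.symm
  · rw [flipS_of_not_alt h]; exact hE

/-- (L2) Two realizations that agree outside the four slots are equal or flips of each
other. -/
theorem eq_or_eq_flipS {E E' : Finset (Sym2 (Fin n))} {u w x y : Fin n}
    (hE : IsRealization d E) (hE' : IsRealization d E')
    (huw : u ≠ w) (hxy : x ≠ y) (hux : u ≠ x) (huy : u ≠ y) (hwx : w ≠ x) (hwy : w ≠ y)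
    (h : SAgree (slots u w x y) E E') :
    E' = E ∨ (Alt E u w x y ∧ E' = flipS E u w x y) := by
  have hL : SAgree (pairsAt {u, w}) E E' := h.mono (slots_subset_pairsAt_left u w x y)
  have hR : SAgree (pairsAt {x, y}) E E' := h.mono (slots_subset_pairsAt_right u w x y)
  have c1 := col_sum_eq hE hE' hL huw hux.symm hwx.symm
  have c2 := col_sum_eq hE hE' hL huw huy.symm hwy.symm
  have r1 := col_sum_eq hE hE' hR hxy hux huy
  have r2 := col_sum_eq hE hE' hR hxy hwx hwy
  rw [ind_comm E x u, ind_comm E x w, ind_comm E' x u, ind_comm E' x w] at c1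
  rw [ind_comm E y u, ind_comm E y w, ind_comm E' y u, ind_comm E' y w] at c2
  have b1 := ind_le_one E u x
  have b2 := ind_le_one E u y
  have b3 := ind_le_one E w x
  have b4 := ind_le_one E w y
  have b1' := ind_le_one E' u x
  have b2' := ind_le_one E' u y
  have b3' := ind_le_one E' w x
  have b4' := ind_le_one E' w y
  have key : (ind E' u x = ind E u x ∧ ind E' u y = ind E u y ∧ ind E' w x = ind E w x ∧
      ind E' w y = ind E w y) ∨
      (ind E u x = ind E w y ∧ ind E u y = ind E w x ∧ ind E u x + ind E u y = 1 ∧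
        ind E' u x + ind E u x = 1 ∧ ind E' u y + ind E u y = 1 ∧ ind E' w x + ind E w x = 1 ∧
        ind E' w y + ind E w y = 1) := by omega
  have hmem : ∀ (E₁ E₂ : Finset (Sym2 (Fin n))) (a b : Fin n), ind E₁ a b = ind E₂ a b →
      (s(a, b) ∈ E₁ ↔ s(a, b) ∈ E₂) := by
    intro E₁ E₂ a b hh
    unfold ind at hh
    by_cases p1 : s(a, b) ∈ E₁ <;> by_cases p2 : s(a, b) ∈ E₂ <;> simp [p1, p2] at hh ⊢
  have hnmem : ∀ (E₁ E₂ : Finset (Sym2 (Fin n))) (a b : Fin n), ind E₁ a b + ind E₂ a b = 1 →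
      (s(a, b) ∈ E₁ ↔ s(a, b) ∉ E₂) := by
    intro E₁ E₂ a b hh
    unfold ind at hh
    by_cases p1 : s(a, b) ∈ E₁ <;> by_cases p2 : s(a, b) ∈ E₂ <;> simp [p1, p2] at hh ⊢
  rcases key with ⟨k1, k2, k3, k4⟩ | ⟨k1, k2, k3, k4, k5, k6, k7⟩
  · left
    ext e
    by_cases he : e ∈ slots u w x y
    · rw [mem_slots] at he
      rcases he with rfl | rfl | rfl | rfl
      · exact hmem _ _ _ _ k1
      · exact hmem _ _ _ _ k2
      · exact hmem _ _ _ _ k3
      · exact hmem _ _ _ _ k4
    · exact (h e he).symm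
  · right
    have halt : Alt E u w x y := by
      unfold Alt
      unfold ind at k1 k2 k3
      by_cases p1 : s(u, x) ∈ E <;> by_cases p2 : s(u, y) ∈ E <;> by_cases p3 : s(w, x) ∈ E <;>
        by_cases p4 : s(w, y) ∈ E <;> simp [p1, p2, p3, p4] at k1 k2 k3 ⊢
    refine ⟨halt, ?_⟩
    ext e
    by_cases he : e ∈ slots u w x y
    · rw [mem_flipS_of_mem_slots halt he]
      rw [mem_slots] at he
      rcases he with rfl | rfl | rfl | rfl
      · exact hnmem _ _ _ _ k4
      · exact hnmem _ _ _ _ k5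
      · exact hnmem _ _ _ _ k6
      · exact hnmem _ _ _ _ k7
    · rw [mem_flipS_of_not_mem_slots he]
      exact (h e he).symm

/-! ### Rectangle completion when the slot count is odd -/

/-- The number of edges of `E` at `v` outside the pair set `P`. -/
noncomputable def odeg (P E : Finset (Sym2 (Fin n))) (v : Fin n) : ℕ :=
  ((nbrs E v).filter (fun z => s(v, z) ∉ P)).card

theorem card_nbrs_split (P E : Finset (Sym2 (Fin n))) (v : Fin n) :
    (nbrs E v).card = pdeg P E v + odeg P E v := by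
  unfold pdeg odeg
  exact (card_filter_add_card_filter_not (s := nbrs E v) (fun z => s(v, z) ∈ P)).symm

theorem odeg_congr {P E E' : Finset (Sym2 (Fin n))} {v : Fin n}
    (h : ∀ z, s(v, z) ∉ P → (s(v, z) ∈ E ↔ s(v, z) ∈ E')) : odeg P E v = odeg P E' v := by
  unfold odeg
  congr 1
  ext z
  simp only [mem_filter, nbrs, mem_univ, true_and]
  constructor
  · rintro ⟨hz, hP⟩
    exact ⟨(h z hP).mp hz, hP⟩
  · rintro ⟨hz, hP⟩
    exact ⟨(h z hP).mpr hz, hP⟩

/-- The slot `pq` (with `p` in `{u,w}`, `q` in `{x,y}`) of the completed rectangle: the unique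
0/1 matrix with the row sums of `E` and the column sums of `E''` (odd slot count). -/
def RectSlot (E E'' : Finset (Sym2 (Fin n))) (u w x y p q : Fin n) : Prop :=
  slotCount E u w x y + 3 ≤ 2 * ((ind E p x + ind E p y) + (ind E'' u q + ind E'' w q))

/-- The completed rectangle: `E` outside the pairs meeting `{x, y}`, `E''` on the pairs meeting
`{x, y}` that are not slots, and the slot matrix given by `RectSlot`. -/
noncomputable def rect (E E'' : Finset (Sym2 (Fin n))) (u w x y : Fin n) :
    Finset (Sym2 (Fin n)) :=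
  (E.filter (fun e => e ∉ pairsAt {x, y})) ∪
  (E''.filter (fun e => e ∈ pairsAt {x, y} ∧ e ∉ slots u w x y)) ∪
  ((slots u w x y).filter (fun e =>
    (e = s(u, x) ∧ RectSlot E E'' u w x y u x) ∨ (e = s(u, y) ∧ RectSlot E E'' u w x y u y) ∨
    (e = s(w, x) ∧ RectSlot E E'' u w x y w x) ∨ (e = s(w, y) ∧ RectSlot E E'' u w x y w y)))

theorem mem_rect_of_not_mem_pairsAt {E E'' : Finset (Sym2 (Fin n))} {u w x y : Fin n}
    {e : Sym2 (Fin n)} (he : e ∉ pairsAt {x, y}) : e ∈ rect E E'' u w x y ↔ e ∈ E := by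
  have hs : e ∉ slots u w x y := fun h => he (slots_subset_pairsAt_right u w x y h)
  unfold rect
  simp only [mem_union, mem_filter]
  tauto

theorem mem_rect_of_not_mem_slots {E E'' : Finset (Sym2 (Fin n))} {u w x y : Fin n}
    {e : Sym2 (Fin n)} (he : e ∈ pairsAt {x, y}) (hs : e ∉ slots u w x y) :
    e ∈ rect E E'' u w x y ↔ e ∈ E'' := by
  unfold rect
  simp only [mem_union, mem_filter]
  tauto

section slotmem

variable {E E'' : Finset (Sym2 (Fin n))} {u w x y : Fin n}
  (huw : u ≠ w) (hxy : x ≠ y) (hux : u ≠ x) (huy : u ≠ y) (hwx : w ≠ x) (hwy : w ≠ y)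

include huw hxy hux huy hwx hwy

theorem slot_ne : s(u, x) ≠ s(u, y) ∧ s(u, x) ≠ s(w, x) ∧ s(u, x) ≠ s(w, y) ∧
    s(u, y) ≠ s(w, x) ∧ s(u, y) ≠ s(w, y) ∧ s(w, x) ≠ s(w, y) := by
  refine ⟨?_, ?_, ?_, ?_, ?_, ?_⟩ <;>
    simp [Sym2.eq_iff, huw, hxy, hux, huy, hwx, hwy, hxy.symm]

theorem ux_mem_rect : s(u, x) ∈ rect E E'' u w x y ↔ RectSlot E E'' u w x y u x := by
  obtain ⟨e1, e2, e3, e4, e5, e6⟩ := slot_ne huw hxy hux huy hwx hwy
  have hs : s(u, x) ∈ slots u w x y := by simp [slots]
  have hp := slots_subset_pairsAt_right u w x y hs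
  unfold rect
  simp only [mem_union, mem_filter]
  constructor
  · rintro ((⟨_, h⟩ | ⟨_, _, h⟩) | ⟨_, h⟩)
    · exact absurd hp h
    · exact absurd hs h
    · rcases h with ⟨_, h⟩ | ⟨h, _⟩ | ⟨h, _⟩ | ⟨h, _⟩
      · exact h
      · exact absurd h e1
      · exact absurd h e2
      · exact absurd h e3
  · intro h
    exact Or.inr ⟨hs, Or.inl ⟨trivial, h⟩⟩

theorem uy_mem_rect : s(u, y) ∈ rect E E'' u w x y ↔ RectSlot E E'' u w x y u y := by
  obtain ⟨e1, e2, e3, e4, e5, e6⟩ := slot_ne huw hxy hux huy hwx hwy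
  have hs : s(u, y) ∈ slots u w x y := by simp [slots]
  have hp := slots_subset_pairsAt_right u w x y hs
  unfold rect
  simp only [mem_union, mem_filter]
  constructor
  · rintro ((⟨_, h⟩ | ⟨_, _, h⟩) | ⟨_, h⟩)
    · exact absurd hp h
    · exact absurd hs h
    · rcases h with ⟨h, _⟩ | ⟨_, h⟩ | ⟨h, _⟩ | ⟨h, _⟩
      · exact absurd h e1.symm
      · exact h
      · exact absurd h e4
      · exact absurd h e5
  · intro h
    exact Or.inr ⟨hs, Or.inr (Or.inl ⟨trivial, h⟩)⟩

theorem wx_mem_rect : s(w, x) ∈ rect E E'' u w x y ↔ RectSlot E E'' u w x y w x := by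
  obtain ⟨e1, e2, e3, e4, e5, e6⟩ := slot_ne huw hxy hux huy hwx hwy
  have hs : s(w, x) ∈ slots u w x y := by simp [slots]
  have hp := slots_subset_pairsAt_right u w x y hs
  unfold rect
  simp only [mem_union, mem_filter]
  constructor
  · rintro ((⟨_, h⟩ | ⟨_, _, h⟩) | ⟨_, h⟩)
    · exact absurd hp h
    · exact absurd hs h
    · rcases h with ⟨h, _⟩ | ⟨h, _⟩ | ⟨_, h⟩ | ⟨h, _⟩
      · exact absurd h e2.symm
      · exact absurd h e4.symm
      · exact h
      · exact absurd h e6
  · intro h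
    exact Or.inr ⟨hs, Or.inr (Or.inr (Or.inl ⟨trivial, h⟩))⟩

theorem wy_mem_rect : s(w, y) ∈ rect E E'' u w x y ↔ RectSlot E E'' u w x y w y := by
  obtain ⟨e1, e2, e3, e4, e5, e6⟩ := slot_ne huw hxy hux huy hwx hwy
  have hs : s(w, y) ∈ slots u w x y := by simp [slots]
  have hp := slots_subset_pairsAt_right u w x y hs
  unfold rect
  simp only [mem_union, mem_filter]
  constructor
  · rintro ((⟨_, h⟩ | ⟨_, _, h⟩) | ⟨_, h⟩)
    · exact absurd hp h
    · exact absurd hs h
    · rcases h with ⟨h, _⟩ | ⟨h, _⟩ | ⟨h, _⟩ | ⟨_, h⟩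
      · exact absurd h e3.symm
      · exact absurd h e5.symm
      · exact absurd h e6.symm
      · exact h
  · intro h
    exact Or.inr ⟨hs, Or.inr (Or.inr (Or.inr ⟨trivial, h⟩))⟩

end slotmem

theorem rect_arith (a b c e a2 b2 c2 e2 : ℕ)
    (ha : a ≤ 1) (hb : b ≤ 1) (hc : c ≤ 1) (he : e ≤ 1)
    (ha2 : a2 ≤ 1) (hb2 : b2 ≤ 1) (hc2 : c2 ≤ 1) (he2 : e2 ≤ 1)
    (hsum : a + b + c + e = a2 + b2 + c2 + e2) (hodd : Odd (a + b + c + e)) :
    ((if a + b + c + e + 3 ≤ 2 * ((a + b) + (a2 + c2)) then 1 else 0) +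
      (if a + b + c + e + 3 ≤ 2 * ((a + b) + (b2 + e2)) then 1 else 0) = a + b) ∧
    ((if a + b + c + e + 3 ≤ 2 * ((c + e) + (a2 + c2)) then 1 else 0) +
      (if a + b + c + e + 3 ≤ 2 * ((c + e) + (b2 + e2)) then 1 else 0) = c + e) ∧
    ((if a + b + c + e + 3 ≤ 2 * ((a + b) + (a2 + c2)) then 1 else 0) +
      (if a + b + c + e + 3 ≤ 2 * ((c + e) + (a2 + c2)) then 1 else 0) = a2 + c2) ∧
    ((if a + b + c + e + 3 ≤ 2 * ((a + b) + (b2 + e2)) then 1 else 0) +
      (if a + b + c + e + 3 ≤ 2 * ((c + e) + (b2 + e2)) then 1 else 0) = b2 + e2) := by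
  obtain ⟨k, hk⟩ := hodd
  refine ⟨?_, ?_, ?_, ?_⟩ <;> split_ifs <;> omega

theorem rect_sAgree_right (E E'' : Finset (Sym2 (Fin n))) (u w x y : Fin n) :
    SAgree (pairsAt {x, y}) E (rect E E'' u w x y) :=
  fun _ he => (mem_rect_of_not_mem_pairsAt he).symm

theorem rect_sAgree_left {E E' E'' : Finset (Sym2 (Fin n))} {u w x y : Fin n}
    (h1 : SAgree (pairsAt {u, w}) E E') (h2 : SAgree (pairsAt {x, y}) E' E'') :
    SAgree (pairsAt {u, w}) (rect E E'' u w x y) E'' := by
  intro e he
  by_cases h : e ∈ pairsAt {x, y}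
  · have hs : e ∉ slots u w x y := fun hh => he (slots_subset_pairsAt_left u w x y hh)
    exact mem_rect_of_not_mem_slots h hs
  · rw [mem_rect_of_not_mem_pairsAt h]
    exact (h1 e he).trans (h2 e h)

/-- (L4) **Rectangle completion.** If `E ~ E'` outside the pairs meeting `{u, w}`, `E' ~ E''`
outside the pairs meeting `{x, y}`, and the number of slot edges is odd, then `rect E E''` is a
realization that agrees with `E` outside the pairs meeting `{x, y}` and with `E''` outside the
pairs meeting `{u, w}`. -/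
theorem rect_isRealization {E E' E'' : Finset (Sym2 (Fin n))} {u w x y : Fin n}
    (huw : u ≠ w) (hxy : x ≠ y) (hux : u ≠ x) (huy : u ≠ y) (hwx : w ≠ x) (hwy : w ≠ y)
    (hE : IsRealization d E) (hE' : IsRealization d E') (hE'' : IsRealization d E'')
    (h1 : SAgree (pairsAt {u, w}) E E') (h2 : SAgree (pairsAt {x, y}) E' E'')
    (hodd : Odd (slotCount E u w x y)) :
    IsRealization d (rect E E'' u w x y) := by
  set H := rect E E'' u w x y with hH
  -- slot indicators of `H`
  have iux : ind H u x = if RectSlot E E'' u w x y u x then 1 else 0 := by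
    exact ind_eq_ite (ux_mem_rect huw hxy hux huy hwx hwy)
  have iuy : ind H u y = if RectSlot E E'' u w x y u y then 1 else 0 := by
    exact ind_eq_ite (uy_mem_rect huw hxy hux huy hwx hwy)
  have iwx : ind H w x = if RectSlot E E'' u w x y w x then 1 else 0 := by
    exact ind_eq_ite (wx_mem_rect huw hxy hux huy hwx hwy)
  have iwy : ind H w y = if RectSlot E E'' u w x y w y then 1 else 0 := by
    exact ind_eq_ite (wy_mem_rect huw hxy hux huy hwx hwy)
  -- slot count is preserved
  have sc1 := slotCount_eq_left hE hE' h1 huw hux huy hwx hwy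
  have sc2 := slotCount_eq_right hE' hE'' h2 hxy hux huy hwx hwy
  have hsum : ind E u x + ind E u y + ind E w x + ind E w y
      = ind E'' u x + ind E'' u y + ind E'' w x + ind E'' w y := by
    have := sc1.trans sc2
    unfold slotCount at this
    exact this
  have hodd' : Odd (ind E u x + ind E u y + ind E w x + ind E w y) := hodd
  have ar := rect_arith (ind E u x) (ind E u y) (ind E w x) (ind E w y)
    (ind E'' u x) (ind E'' u y) (ind E'' w x) (ind E'' w y)
    (ind_le_one _ _ _) (ind_le_one _ _ _) (ind_le_one _ _ _) (ind_le_one _ _ _)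
    (ind_le_one _ _ _) (ind_le_one _ _ _) (ind_le_one _ _ _) (ind_le_one _ _ _) hsum hodd'
  have rs : ∀ p q, RectSlot E E'' u w x y p q ↔
      ind E u x + ind E u y + ind E w x + ind E w y + 3
        ≤ 2 * ((ind E p x + ind E p y) + (ind E'' u q + ind E'' w q)) := fun p q => Iff.rfl
  simp only [← rs] at ar
  rw [← iux, ← iuy, ← iwx, ← iwy] at ar
  obtain ⟨ar1, ar2, ar3, ar4⟩ := ar
  refine ⟨?_, ?_⟩
  · -- no loops
    intro e he
    rw [hH] at he
    unfold rect at he
    simp only [mem_union, mem_filter] at he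
    rcases he with (⟨he, _⟩ | ⟨he, _⟩) | ⟨he, _⟩
    · exact hE.1 e he
    · exact hE''.1 e he
    · rw [mem_slots] at he
      rcases he with rfl | rfl | rfl | rfl
      · simpa using hux
      · simpa using huy
      · simpa using hwx
      · simpa using hwy
  · intro v
    by_cases hvx : v = x
    · -- the vertex x: split by the pairs meeting {u, w}
      subst hvx
      rw [card_nbrs_split (pairsAt {u, w}) H v, ← hE''.2 v, card_nbrs_split (pairsAt {u, w}) E'' v,
        pdeg_pairsAt_pair H huw hux.symm hwx.symm, pdeg_pairsAt_pair E'' huw hux.symm hwx.symm]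
      have ho : odeg (pairsAt {u, w}) H v = odeg (pairsAt {u, w}) E'' v := by
        apply odeg_congr
        intro z hz
        rw [hH]
        apply mem_rect_of_not_mem_slots
        · rw [mk_mem_pairsAt]; simp
        · exact fun hh => hz (slots_subset_pairsAt_left u w v y hh)
      rw [ho, ind_comm H v u, ind_comm H v w, ind_comm E'' v u, ind_comm E'' v w]
      omega
    by_cases hvy : v = y
    · subst hvy
      rw [card_nbrs_split (pairsAt {u, w}) H v, ← hE''.2 v, card_nbrs_split (pairsAt {u, w}) E'' v,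
        pdeg_pairsAt_pair H huw huy.symm hwy.symm, pdeg_pairsAt_pair E'' huw huy.symm hwy.symm]
      have ho : odeg (pairsAt {u, w}) H v = odeg (pairsAt {u, w}) E'' v := by
        apply odeg_congr
        intro z hz
        rw [hH]
        apply mem_rect_of_not_mem_slots
        · rw [mk_mem_pairsAt]; simp
        · exact fun hh => hz (slots_subset_pairsAt_left u w x v hh)
      rw [ho, ind_comm H v u, ind_comm H v w, ind_comm E'' v u, ind_comm E'' v w]
      omega
    -- other vertices: split by the pairs meeting {x, y}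
    rw [card_nbrs_split (pairsAt {x, y}) H v, ← hE.2 v, card_nbrs_split (pairsAt {x, y}) E v,
      pdeg_pairsAt_pair H hxy hvx hvy, pdeg_pairsAt_pair E hxy hvx hvy]
    have ho : odeg (pairsAt {x, y}) H v = odeg (pairsAt {x, y}) E v := by
      apply odeg_congr
      intro z hz
      rw [hH]
      exact mem_rect_of_not_mem_pairsAt hz
    rw [ho]
    by_cases hvu : v = u
    · subst hvu; omega
    by_cases hvw : v = w
    · subst hvw; omega
    -- a vertex outside the four
    have m1 : s(v, x) ∈ H ↔ s(v, x) ∈ E'' := by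
      rw [hH]
      apply mem_rect_of_not_mem_slots
      · rw [mk_mem_pairsAt]; simp
      · rw [mem_slots]
        simp [Sym2.eq_iff, hvu, hvw, hvx, hvy, hux, huy, hwx, hwy, hxy, hxy.symm, hux.symm,
          hwx.symm]
    have m2 : s(v, y) ∈ H ↔ s(v, y) ∈ E'' := by
      rw [hH]
      apply mem_rect_of_not_mem_slots
      · rw [mk_mem_pairsAt]; simp
      · rw [mem_slots]
        simp [Sym2.eq_iff, hvu, hvw, hvx, hvy, hux, huy, hwx, hwy, hxy, hxy.symm, huy.symm,
          hwy.symm]
    have i1 : ind H v x = ind E'' v x := ind_congr m1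
    have i2 : ind H v y = ind E'' v y := ind_congr m2
    have c := col_sum_eq hE' hE'' h2 hxy hvx hvy
    have n1 : s(v, x) ∈ E ↔ s(v, x) ∈ E' := by
      apply h1
      rw [mk_mem_pairsAt]
      simp [hvu, hvw, hux.symm, hwx.symm]
    have n2 : s(v, y) ∈ E ↔ s(v, y) ∈ E' := by
      apply h1
      rw [mk_mem_pairsAt]
      simp [hvu, hvw, huy.symm, hwy.symm]
    have j1 : ind E v x = ind E' v x := ind_congr n1
    have j2 : ind E v y = ind E' v y := ind_congr n2
    omega

end Vale.Agent.Lib.P335.H17
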