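import Vale.Agent.Lib.P335.H17.Slots
import Vale.Agent.Lib.P335.H8.PairRel
import Vale.Agent.Lib.P335.Gr.Flip

/-!
# The slot lemmas in the shapes of the graph classes (problem P335, graph case)

For two disjoint vertex pairs `b`, `b2` the facts of `H17/Slots.lean` are restated for graphs
in `Omega d`, with agreement off a vertex set (`Gr.GAgree`), the slot-set agreement
`H8.AgreeS`, the cross slots `Gr.cross`, the alternating condition `Gr.IsAlt` and the flip
`Gr.flip`:

* the number of cross edges is constant on the classes of `b` and of `b2`;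
* an odd number of cross edges: the flip is the identity, two graphs agreeing off `b` and off
  `b2` are equal, and the rectangle can be completed;
* an even number of cross edges and no alternating cycle: the cross slots are frozen on the
  class of `b` or on the class of `b2`;
* two alternating graphs in one class agree on the cross slots up to the flip, and the flip
  respects agreement outside the own slots.
-/

namespace Vale.Agent.Lib.P335.H17

open Finset
open Classical
open Vale.Agent.Lib.P335 Vale.Agent.Lib.P335.Gr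

variable {n : ℕ} {d : Fin n → ℕ}

/-! ### Dictionary -/

theorem pairsAt_eq_slotsAt (W : Finset (Fin n)) : pairsAt W = H8.slotsAt W := rfl

theorem gagree_iff_sAgree {W : Finset (Fin n)} {E E' : Finset (Sym2 (Fin n))} :
    GAgree W E E' ↔ SAgree (pairsAt W) E E' := sAgree_pairsAt_iff.symm

theorem cross_eq_slots (u w x y : Fin n) : cross {u, w} {x, y} = slots u w x y :=
  cross_pair u w x y

theorem isAlt_iff_alt {u w x y : Fin n} (huw : u ≠ w) (hxy : x ≠ y)
    (E : Finset (Sym2 (Fin n))) : IsAlt {u, w} {x, y} E ↔ Alt E u w x y :=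
  isAlt_pair huw hxy E

theorem card_inter_slots (E : Finset (Sym2 (Fin n))) {u w x y : Fin n}
    (huw : u ≠ w) (hxy : x ≠ y) (hux : u ≠ x) (huy : u ≠ y) (hwx : w ≠ x) (hwy : w ≠ y) :
    (E ∩ slots u w x y).card = slotCount E u w x y := by
  obtain ⟨n1, n2, n3, n4, n5, n6⟩ := slot_ne huw hxy hux huy hwx hwy
  have h1 : E ∩ slots u w x y = (slots u w x y).filter (fun e => e ∈ E) := by
    ext e
    simp only [mem_inter, mem_filter]
    tauto
  rw [h1, Finset.card_filter]
  unfold slots slotCount ind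
  rw [Finset.sum_insert (by simp [n1, n2, n3]), Finset.sum_insert (by simp [n4, n5]),
    Finset.sum_insert (by simp [n6]), Finset.sum_singleton]
  ring

theorem card_inter_cross (E : Finset (Sym2 (Fin n))) {u w x y : Fin n}
    (huw : u ≠ w) (hxy : x ≠ y) (hux : u ≠ x) (huy : u ≠ y) (hwx : w ≠ x) (hwy : w ≠ y) :
    (E ∩ cross {u, w} {x, y}).card = slotCount E u w x y := by
  rw [cross_eq_slots]
  exact card_inter_slots E huw hxy hux huy hwx hwy

theorem flipSet_eq_flipS {u w x y : Fin n} (huw : u ≠ w) (hxy : x ≠ y)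
    (E : Finset (Sym2 (Fin n))) : flipSet {u, w} {x, y} E = flipS E u w x y := by
  unfold flipSet flipS
  rw [cross_eq_slots]
  by_cases h : Alt E u w x y
  · rw [if_pos h, if_pos ((isAlt_iff_alt huw hxy E).mpr h)]
  · rw [if_neg h, if_neg (fun h' => h ((isAlt_iff_alt huw hxy E).mp h'))]

theorem flip_val_eq_flipS {u w x y : Fin n} (huw : u ≠ w) (hxy : x ≠ y)
    (hd : Disjoint ({u, w} : Finset (Fin n)) {x, y}) (G : Omega d) :
    (flip {u, w} {x, y} G).1 = flipS G.1 u w x y := by
  rw [flip_val (card_pair huw) (card_pair hxy) hd, flipSet_eq_flipS huw hxy]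

/-! ### The number of cross edges is constant on classes -/

/-- The number of cross edges is the same for two graphs that agree off `b`. -/
theorem cross_card_eq_left {b b2 : Finset (Fin n)} (hb : b.card = 2) (hb2 : b2.card = 2)
    (hd : Disjoint b b2) {G G2 : Omega d} (h : GAgree b G.1 G2.1) :
    (G.1 ∩ cross b b2).card = (G2.1 ∩ cross b b2).card := by
  obtain ⟨u, w, huw, rfl⟩ := card_eq_two.mp hb
  obtain ⟨x, y, hxy, rfl⟩ := card_eq_two.mp hb2
  obtain ⟨hux, huy, hwx, hwy⟩ := pair_distinct hd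
  rw [card_inter_cross G.1 huw hxy hux huy hwx hwy, card_inter_cross G2.1 huw hxy hux huy hwx hwy]
  exact slotCount_eq_left G.2 G2.2 (gagree_iff_sAgree.mp h) huw hux huy hwx hwy

/-- The number of cross edges is the same for two graphs that agree off `b2`. -/
theorem cross_card_eq_right {b b2 : Finset (Fin n)} (hb : b.card = 2) (hb2 : b2.card = 2)
    (hd : Disjoint b b2) {G G2 : Omega d} (h : GAgree b2 G.1 G2.1) :
    (G.1 ∩ cross b b2).card = (G2.1 ∩ cross b b2).card := by
  obtain ⟨u, w, huw, rfl⟩ := card_eq_two.mp hb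
  obtain ⟨x, y, hxy, rfl⟩ := card_eq_two.mp hb2
  obtain ⟨hux, huy, hwx, hwy⟩ := pair_distinct hd
  rw [card_inter_cross G.1 huw hxy hux huy hwx hwy, card_inter_cross G2.1 huw hxy hux huy hwx hwy]
  exact slotCount_eq_right G.2 G2.2 (gagree_iff_sAgree.mp h) hxy hux huy hwx hwy

/-- The parity of the number of cross edges is constant on the classes of `b`. -/
theorem odd_cross_iff_left {b b2 : Finset (Fin n)} (hb : b.card = 2) (hb2 : b2.card = 2)
    (hd : Disjoint b b2) {G G2 : Omega d} (h : GAgree b G.1 G2.1) :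
    Odd (G.1 ∩ cross b b2).card ↔ Odd (G2.1 ∩ cross b b2).card := by
  rw [cross_card_eq_left hb hb2 hd h]

/-- The parity of the number of cross edges is constant on the classes of `b2`. -/
theorem odd_cross_iff_right {b b2 : Finset (Fin n)} (hb : b.card = 2) (hb2 : b2.card = 2)
    (hd : Disjoint b b2) {G G2 : Omega d} (h : GAgree b2 G.1 G2.1) :
    Odd (G.1 ∩ cross b b2).card ↔ Odd (G2.1 ∩ cross b b2).card := by
  rw [cross_card_eq_right hb hb2 hd h]

/-! ### Odd number of cross edges -/

/-- An alternating graph has exactly two cross edges. -/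
theorem cross_card_of_isAlt {b b2 : Finset (Fin n)} (hb : b.card = 2) (hb2 : b2.card = 2)
    (hd : Disjoint b b2) {E : Finset (Sym2 (Fin n))} (h : IsAlt b b2 E) :
    (E ∩ cross b b2).card = 2 := by
  obtain ⟨u, w, huw, rfl⟩ := card_eq_two.mp hb
  obtain ⟨x, y, hxy, rfl⟩ := card_eq_two.mp hb2
  obtain ⟨hux, huy, hwx, hwy⟩ := pair_distinct hd
  rw [card_inter_cross E huw hxy hux huy hwx hwy]
  exact slotCount_of_alt ((isAlt_iff_alt huw hxy E).mp h)

/-- With an odd number of cross edges the flip does nothing. -/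
theorem flip_eq_of_odd (b b2 : Finset (Fin n)) (G : Omega d)
    (hodd : Odd (G.1 ∩ cross b b2).card) : flip b b2 G = G := by
  by_cases h : b.card = 2 ∧ b2.card = 2 ∧ Disjoint b b2
  · apply flip_of_not
    intro ha
    rw [cross_card_of_isAlt h.1 h.2.1 h.2.2 ha] at hodd
    exact absurd hodd (by decide)
  · unfold Gr.flip
    rw [dif_neg h]

/-- With an odd number of cross edges, two graphs that agree off `b` and off `b2` are
equal. -/
theorem eq_of_odd_of_gagree {b b2 : Finset (Fin n)} (hb : b.card = 2) (hb2 : b2.card = 2)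
    (hd : Disjoint b b2) {G G2 : Omega d} (hodd : Odd (G.1 ∩ cross b b2).card)
    (h1 : GAgree b G.1 G2.1) (h2 : GAgree b2 G.1 G2.1) : G = G2 := by
  obtain ⟨u, w, huw, rfl⟩ := card_eq_two.mp hb
  obtain ⟨x, y, hxy, rfl⟩ := card_eq_two.mp hb2
  obtain ⟨hux, huy, hwx, hwy⟩ := pair_distinct hd
  rw [card_inter_cross G.1 huw hxy hux huy hwx hwy] at hodd
  have hs := sAgree_slots_of_both hux huy hwx hwy (gagree_iff_sAgree.mp h1)
    (gagree_iff_sAgree.mp h2)
  rcases eq_or_eq_flipS G.2 G2.2 huw hxy hux huy hwx hwy hs with h | ⟨ha, _⟩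
  · exact Subtype.ext h.symm
  · exfalso
    rw [slotCount_of_alt ha] at hodd
    exact absurd hodd (by decide)

/-- **Rectangle completion.** With an odd number of cross edges: if `G` and `G2` agree off
`b` and `G2`, `G3` agree off `b2`, some graph `H` agrees with `G` off `b2` and with `G3`
off `b`. -/
theorem exists_rect {b b2 : Finset (Fin n)} (hb : b.card = 2) (hb2 : b2.card = 2)
    (hd : Disjoint b b2) {G G2 G3 : Omega d} (hodd : Odd (G.1 ∩ cross b b2).card)
    (h1 : GAgree b G.1 G2.1) (h2 : GAgree b2 G2.1 G3.1) :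
    ∃ H : Omega d, GAgree b2 G.1 H.1 ∧ GAgree b H.1 G3.1 := by
  obtain ⟨u, w, huw, rfl⟩ := card_eq_two.mp hb
  obtain ⟨x, y, hxy, rfl⟩ := card_eq_two.mp hb2
  obtain ⟨hux, huy, hwx, hwy⟩ := pair_distinct hd
  rw [card_inter_cross G.1 huw hxy hux huy hwx hwy] at hodd
  have s1 := gagree_iff_sAgree.mp h1
  have s2 := gagree_iff_sAgree.mp h2
  refine ⟨⟨rect G.1 G3.1 u w x y,
    rect_isRealization huw hxy hux huy hwx hwy G.2 G2.2 G3.2 s1 s2 hodd⟩, ?_, ?_⟩
  · exact gagree_iff_sAgree.mpr (rect_sAgree_right G.1 G3.1 u w x y)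
  · exact gagree_iff_sAgree.mpr (rect_sAgree_left s1 s2)

/-! ### Even number of cross edges, no alternating cycle -/

/-- If both columns of the cross matrix are constant, a graph that agrees with `G` off
`{u, w}` agrees with `G` outside the own slots of `{u, w}`. -/
theorem agreeS_own_of_cols {u w x y : Fin n} (huw : u ≠ w) (hux : u ≠ x) (huy : u ≠ y)
    (hwx : w ≠ x) (hwy : w ≠ y) {G G2 : Omega d}
    (hcx : s(x, u) ∈ G.1 ↔ s(x, w) ∈ G.1) (hcy : s(y, u) ∈ G.1 ↔ s(y, w) ∈ G.1)
    (h : GAgree {u, w} G.1 G2.1) : H8.AgreeS (H8.ownS {u, w} {x, y}) G G2 := by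
  have s1 := gagree_iff_sAgree.mp h
  have fx := frozen_col G.2 G2.2 s1 huw hux.symm hwx.symm hcx
  have fy := frozen_col G.2 G2.2 s1 huw huy.symm hwy.symm hcy
  intro e he
  by_cases h1 : e ∈ pairsAt {u, w}
  · have h2 : e ∈ pairsAt {x, y} := by
      by_contra h2
      apply he
      unfold H8.ownS
      rw [mem_sdiff]
      exact ⟨h1, h2⟩
    have hs := mem_slots_of_mem_both hux huy hwx hwy h1 h2
    rw [mem_slots] at hs
    rcases hs with rfl | rfl | rfl | rfl
    · rw [Sym2.eq_swap]; exact fx.1.symm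
    · rw [Sym2.eq_swap]; exact fy.1.symm
    · rw [Sym2.eq_swap]; exact fx.2.symm
    · rw [Sym2.eq_swap]; exact fy.2.symm
  · exact s1 e h1

/-- **Frozen cross slots.** With an even number of cross edges and no alternating cycle,
the cross slots are frozen on the class of `b` or on the class of `b2`. -/
theorem frozen_of_even {b b2 : Finset (Fin n)} (hb : b.card = 2) (hb2 : b2.card = 2)
    (hd : Disjoint b b2) (G : Omega d) (hev : ¬ Odd (G.1 ∩ cross b b2).card)
    (hna : ¬ IsAlt b b2 G.1) :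
    (∀ G2 : Omega d, GAgree b G.1 G2.1 → H8.AgreeS (H8.ownS b b2) G G2) ∨
    (∀ G2 : Omega d, GAgree b2 G.1 G2.1 → H8.AgreeS (H8.ownS b2 b) G G2) := by
  obtain ⟨u, w, huw, rfl⟩ := card_eq_two.mp hb
  obtain ⟨x, y, hxy, rfl⟩ := card_eq_two.mp hb2
  obtain ⟨hux, huy, hwx, hwy⟩ := pair_distinct hd
  rw [card_inter_cross G.1 huw hxy hux huy hwx hwy, Nat.not_odd_iff_even] at hev
  rw [isAlt_iff_alt huw hxy] at hna
  by_cases hcol : (s(u, x) ∈ G.1 ↔ s(w, x) ∈ G.1) ∧ (s(u, y) ∈ G.1 ↔ s(w, y) ∈ G.1)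
  · left
    intro G2 h
    refine agreeS_own_of_cols huw hux huy hwx hwy ?_ ?_ h
    · rw [Sym2.eq_swap (a := x) (b := u), Sym2.eq_swap (a := x) (b := w)]
      exact hcol.1
    · rw [Sym2.eq_swap (a := y) (b := u), Sym2.eq_swap (a := y) (b := w)]
      exact hcol.2
  · by_cases hrow : (s(u, x) ∈ G.1 ↔ s(u, y) ∈ G.1) ∧ (s(w, x) ∈ G.1 ↔ s(w, y) ∈ G.1)
    · right
      intro G2 h
      exact agreeS_own_of_cols hxy hux.symm hwx.symm huy.symm hwy.symm hrow.1 hrow.2 h
    · exact absurd (alt_of_even hev hcol hrow) hna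

/-- The same with the flip: a graph fixed by the flip with an even number of cross edges. -/
theorem frozen_of_flip_eq {b b2 : Finset (Fin n)} (hb : b.card = 2) (hb2 : b2.card = 2)
    (hd : Disjoint b b2) (G : Omega d) (hev : ¬ Odd (G.1 ∩ cross b b2).card)
    (hF : flip b b2 G = G) :
    (∀ G2 : Omega d, GAgree b G.1 G2.1 → H8.AgreeS (H8.ownS b b2) G G2) ∨
    (∀ G2 : Omega d, GAgree b2 G.1 G2.1 → H8.AgreeS (H8.ownS b2 b) G G2) :=
  frozen_of_even hb hb2 hd G hev (fun ha => flip_ne_self hb hb2 hd ha hF)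

end Vale.Agent.Lib.P335.H17
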